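import Vale.Agent.P032.H64.CompY
import Vale.Agent.P032.H154.FourTop
import Vale.Agent.P032.H154.Hand

/-!
# P032: the degree theorem with all conclusions in one statement (helper20)

`exists_master` : a maximal family of six open sets without unit distances and with dense union has
a (> 4, > 3) unit pair, or both (a) a unit pair of a two-pair point and a point of another type and
(b) a centre with complementary ends and a point of order four on its circle, or all orders are at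
most four and some point of order four has three points of order four on its circle.
-/

open Set Filter Topology Metric

noncomputable section

namespace Vale.Agent.P032.H20

open Vale.Agent.P032.Six Vale.Agent.P032.S5.H843 Vale.Agent.P032.S5.H926 Vale.Agent.P032.Words6
  Vale.Agent.P032.S5.H138 Vale.Agent.P032.H154 Vale.Agent.P032.H169 Vale.Agent.P032.H987
open Vale.Agent.P032.H64 (noComp_ofY)

/-- a centre with complementary ends (different points) and a point with four indices -/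
def CompYne (U : Fin 6 → Set (EuclideanSpace ℝ (Fin 2))) : Prop :=
  ∃ z v q y, ∃ S X S' : Set (Fin 6), MSU U S z ∧ MSU U S' y ∧ X.ncard = 3 ∧ (S ∩ X).ncard = 2 ∧
    dist v z = 1 ∧ dist q z = 1 ∧ dist y z = 1 ∧ v ≠ q ∧ dist v q < 2 ∧ TriC U X v ∧ TriC U Xᶜ q

/-- without such points there are no complementary palettes in the frame -/
theorem noComp_ofYne {U : Fin 6 → Set (EuclideanSpace ℝ (Fin 2))}
    {φ : ℂ ≃ₗᵢ[ℝ] EuclideanSpace ℝ (Fin 2)} {T : ℂ → Set (Fin 6)} (hd : Dense (⋃ i, U i))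
    (h : Irr (fun i => φ ⁻¹' U i) T) (hmin : Mn (fun i => φ ⁻¹' U i) T) (h5 : NoPair5 T)
    (hM : ∀ z, (T z).ncard = 4 → MSU U (T z) (φ z)) (hcon : ¬ CompYne U) : NoComp T := by
  by_contra hN
  obtain ⟨z, v, q, y, hv, hq, hc, hy, hy4⟩ := Vale.Agent.P032.H64.exists_compY h hmin h5 hN
  have hlt : dist v q < 2 := by
    have h6 : dist v q ≤ 2 := by
      have := dist_triangle_right v q z
      have h7 := hv.dist
      have h8 := hq.dist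
      linarith
    exact lt_of_le_of_ne h6 fun h7 => hv.anti h hq hc (opp_of_dist hv.dist hq.dist h7)
  have hne : v ≠ q := by
    intro e
    have h9 : ((0 : Fin 6) ∈ T q) ↔ ((0 : Fin 6) ∈ (T v)ᶜ) := by rw [hc]
    rw [e, mem_compl_iff] at h9
    tauto
  exact hcon ⟨φ z, φ v, φ q, φ y, T z, T v, T y, hM z hv.card_z, hM y hy4, hv.card_v, hv.card_i,
    by rw [φ.dist_map]; exact hv.dist, by rw [φ.dist_map]; exact hq.dist,
    by rw [φ.dist_map]; exact hy, φ.injective.ne hne, by rw [φ.dist_map]; exact hlt,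
    triC_of hd (tri_map φ (tri_of h v)), hc ▸ triC_of hd (tri_map φ (tri_of h q))⟩

/-- **master statement**, from the blocks -/
theorem exists_master (htab : ∀ L ∈ Vale.Agent.P032.Words6.H122.Lets35,
      Vale.Agent.P032.Words6.H358.TreeOK L) (NC : NoCompJ) (HS : Sil6J) (HX : XDegC)
    {U : Fin 6 → Set (EuclideanSpace ℝ (Fin 2))}
    (hU : ∀ i, Maximal (fun W : Set (EuclideanSpace ℝ (Fin 2)) =>
      IsOpen W ∧ ∀ x ∈ W, ∀ y ∈ W, dist x y ≠ 1) (U i))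
    (hd : Dense (⋃ i, U i)) :
    (∃ z z', dist z z' = 1 ∧ z ∈ XU U 4 ∧ z' ∈ XU U 3) ∨
      ((∃ z z', ∃ S S' : Set (Fin 6), dist z z' = 1 ∧ S ≠ S' ∧ DSU U S z ∧ MSU U S' z') ∧
        (CompYne U ∨ ((∀ z, ∃ s : Set (Fin 6), s.ncard ≤ 4 ∧ SufU U s z) ∧
          ∃ z y1 y2 y3, ∃ S S1 S2 S3 : Set (Fin 6), MSU U S z ∧ MSU U S1 y1 ∧
            MSU U S2 y2 ∧ MSU U S3 y3 ∧ dist y1 z = 1 ∧ dist y2 z = 1 ∧ dist y3 z = 1 ∧
            y1 ≠ y2 ∧ y1 ≠ y3 ∧ y2 ≠ y3))) := by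
  by_cases h0 : ∃ z z', dist z z' = 1 ∧ z ∈ XU U 4 ∧ z' ∈ XU U 3
  · exact Or.inl h0
  refine Or.inr ⟨?_, ?_⟩
  · obtain ⟨z, z', hzz, h⟩ := exists_pair4J htab NC HS hU hd
    rcases h with h | ⟨S, S', h4, h5, h6⟩
    · exact absurd ⟨z, z', hzz, h⟩ h0
    · exact ⟨z, z', S, S', hzz, h4, h5, h6⟩
  · by_cases hC : CompYne U
    · exact Or.inl hC
    refine Or.inr ?_
    obtain ⟨φ, T, h1, h2, h3, hM, hs⟩ := exists_frame6 hU hd
      fun z z' h4 h5 h6 => h0 ⟨z, z', h4, h5, h6⟩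
    have hN := noComp_ofYne hd h1 h2 h3 hM hC
    have hF := df_of_nc' h1 h2 h3 hN
    refine ⟨fun z => ?_, ?_⟩
    · have e : φ (φ.symm z) = z := φ.apply_symm_apply z
      have h5 := hs (φ.symm z)
      rw [e] at h5
      exact ⟨T (φ.symm z), hF.le4 _, h5⟩
    · by_contra hcon
      exact HX _ T hF hN (noThree_of hF.le4 hM hcon)

/-- **master statement**, from the blocks, in the words of Mathlib -/
theorem handMaster (htab : ∀ L ∈ Vale.Agent.P032.Words6.H122.Lets35,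
      Vale.Agent.P032.Words6.H358.TreeOK L) (NC : NoCompJ) (HS : Sil6J) (HX : XDegC) :
    (∀ V : Fin 6 → Set (EuclideanSpace ℝ (Fin 2)), (∀ i, IsOpen (V i)) →
      (∀ i, ∀ x ∈ V i, ∀ y ∈ V i, dist x y ≠ 1) → Dense (⋃ i, V i) →
      ∃ U : Fin 6 → Set (EuclideanSpace ℝ (Fin 2)), (∀ i, V i ⊆ U i) ∧ Dense (⋃ i, U i) ∧
        ∀ i, Maximal (fun W : Set (EuclideanSpace ℝ (Fin 2)) =>
          IsOpen W ∧ ∀ x ∈ W, ∀ y ∈ W, dist x y ≠ 1) (U i)) ∧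
    (∀ U : Fin 6 → Set (EuclideanSpace ℝ (Fin 2)), Dense (⋃ i, U i) →
      (∀ i, Maximal (fun W : Set (EuclideanSpace ℝ (Fin 2)) =>
        IsOpen W ∧ ∀ x ∈ W, ∀ y ∈ W, dist x y ≠ 1) (U i)) →
      (∃ z z', dist z z' = 1 ∧
        (∀ s : Set (Fin 6), s.ncard ≤ 4 → z ∈ closure ((⋃ j, U j) \ ⋃ i ∈ s, U i)) ∧
        ∀ s : Set (Fin 6), s.ncard ≤ 3 → z' ∈ closure ((⋃ j, U j) \ ⋃ i ∈ s, U i)) ∨
      ((∃ z z', ∃ S S' : Set (Fin 6), dist z z' = 1 ∧ S ≠ S' ∧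
          ((S.ncard = 4 ∧ z ∉ closure ((⋃ j, U j) \ ⋃ i ∈ S, U i) ∧
            ∀ s ⊂ S, z ∈ closure ((⋃ j, U j) \ ⋃ i ∈ s, U i)) ∧
          ∃ a b c d : Fin 6, S = {a, b, c, d} ∧
            ∃ p q, dist p z = 1 ∧ dist q z = 1 ∧ ∃ r > 0,
              (∀ y, dist y z = 1 → dist y p < r → y ∈ closure (U a) ∧ y ∈ closure (U b) ∧
                y ∉ closure ((⋃ j, U j) \ ⋃ i ∈ ({a, b} : Set (Fin 6)), U i)) ∧
              ∀ y, dist y z = 1 → dist y q < r → y ∈ closure (U c) ∧ y ∈ closure (U d) ∧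
                y ∉ closure ((⋃ j, U j) \ ⋃ i ∈ ({c, d} : Set (Fin 6)), U i)) ∧
          (S'.ncard = 4 ∧ z' ∉ closure ((⋃ j, U j) \ ⋃ i ∈ S', U i) ∧
            ∀ s ⊂ S', z' ∈ closure ((⋃ j, U j) \ ⋃ i ∈ s, U i))) ∧
        ((∃ z v q y, ∃ S X S' : Set (Fin 6),
          (S.ncard = 4 ∧ z ∉ closure ((⋃ j, U j) \ ⋃ i ∈ S, U i) ∧
            ∀ s ⊂ S, z ∈ closure ((⋃ j, U j) \ ⋃ i ∈ s, U i)) ∧
          (S'.ncard = 4 ∧ y ∉ closure ((⋃ j, U j) \ ⋃ i ∈ S', U i) ∧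
            ∀ s ⊂ S', y ∈ closure ((⋃ j, U j) \ ⋃ i ∈ s, U i)) ∧
          X.ncard = 3 ∧ (S ∩ X).ncard = 2 ∧
          dist v z = 1 ∧ dist q z = 1 ∧ dist y z = 1 ∧ v ≠ q ∧ dist v q < 2 ∧
          (v ∉ closure ((⋃ j, U j) \ ⋃ i ∈ X, U i) ∧ ∀ i ∈ X, v ∈ closure (U i)) ∧
          q ∉ closure ((⋃ j, U j) \ ⋃ i ∈ Xᶜ, U i) ∧ ∀ i ∈ Xᶜ, q ∈ closure (U i)) ∨
        ((∀ z, ∃ s : Set (Fin 6), s.ncard ≤ 4 ∧ z ∉ closure ((⋃ j, U j) \ ⋃ i ∈ s, U i)) ∧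
          ∃ z y1 y2 y3, ∃ S S1 S2 S3 : Set (Fin 6),
            (S.ncard = 4 ∧ z ∉ closure ((⋃ j, U j) \ ⋃ i ∈ S, U i) ∧
              ∀ s ⊂ S, z ∈ closure ((⋃ j, U j) \ ⋃ i ∈ s, U i)) ∧
            (S1.ncard = 4 ∧ y1 ∉ closure ((⋃ j, U j) \ ⋃ i ∈ S1, U i) ∧
              ∀ s ⊂ S1, y1 ∈ closure ((⋃ j, U j) \ ⋃ i ∈ s, U i)) ∧
            (S2.ncard = 4 ∧ y2 ∉ closure ((⋃ j, U j) \ ⋃ i ∈ S2, U i) ∧
              ∀ s ⊂ S2, y2 ∈ closure ((⋃ j, U j) \ ⋃ i ∈ s, U i)) ∧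
            (S3.ncard = 4 ∧ y3 ∉ closure ((⋃ j, U j) \ ⋃ i ∈ S3, U i) ∧
              ∀ s ⊂ S3, y3 ∈ closure ((⋃ j, U j) \ ⋃ i ∈ s, U i)) ∧
            dist y1 z = 1 ∧ dist y2 z = 1 ∧ dist y3 z = 1 ∧ y1 ≠ y2 ∧ y1 ≠ y3 ∧ y2 ≠ y3)))) :=
  ⟨ext_part, fun _ hd hU => exists_master htab NC HS HX hU hd⟩

end Vale.Agent.P032.H20
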