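import Vale.Agent.P032.H492.RowMCTop
import Vale.Agent.P032.H416.XDegC1

/-!
# P032: the block `XDegC` is a theorem
-/

namespace Vale.Agent.P032.H20

open Vale.Agent.P032.Six

/-- **the degree theorem, second form** (row M of 98, 492) -/
theorem xDegC20 : XDegC := xDegC_of_rowMC Vale.Agent.P032.H492.rowMC492

end Vale.Agent.P032.H20
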